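import Vale.Agent.P210.R2.H53.SpecR

/-!
# The linear algebra of the curvature at a point of a chart
-/

open scoped Manifold ContDiff Topology Bundle RealInnerProductSpace
open Set Metric Filter Bundle IsManifold

set_option maxSynthPendingDepth 3

noncomputable section

namespace Vale.Agent.P210.R2.H329

open Vale.Agent.P210.R2.H53

/-- A positive definite symmetric form is isometric to the Euclidean one. -/
theorem exists_iso {E : Type*} [AddCommGroup E] [Module ℝ E] [FiniteDimensional ℝ E] {n : ℕ}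
    (hn : Module.finrank ℝ E = n) (g : E →ₗ[ℝ] E →ₗ[ℝ] ℝ) (hs : ∀ v w, g v w = g w v)
    (hp : ∀ v, v ≠ 0 → 0 < g v v) :
    ∃ φ : E ≃ₗ[ℝ] EuclideanSpace ℝ (Fin n), ∀ v w, g v w = ⟪φ v, φ w⟫ := by
  classical
  let core : InnerProductSpace.Core ℝ E :=
    { inner := fun v w => g v w
      conj_inner_symm := fun v w => by simpa using! hs w v
      re_inner_nonneg := fun v => by
        by_cases hv : v = 0
        · subst hv; simp
        · simpa using! (hp v hv).le
      add_left := fun u v w => by simp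
      smul_left := fun u v r => by simp
      definite := fun v hv => by
        by_contra hne
        exact absurd hv (hp v hne).ne' }
  letI : NormedAddCommGroup E := core.toNormedAddCommGroup
  letI : InnerProductSpace ℝ E := InnerProductSpace.ofCore core.toCore
  let b : OrthonormalBasis (Fin n) ℝ E := (stdOrthonormalBasis ℝ E).reindex (finCongr hn)
  refine ⟨b.repr.toLinearEquiv, fun v w => ?_⟩
  have h := b.repr.inner_map_map v w
  exact h.symm

variable {E : Type*} [NormedAddCommGroup E] [NormedSpace ℝ E] [FiniteDimensional ℝ E]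
  {G : E → E →L[ℝ] E →L[ℝ] ℝ} {U : Set E} {z : E}

theorem secG_symm (h : LocalRiem G U) (hz : z ∈ U) (a b : E) : secG G z a b = secG G z b a := by
  simp only [secG]
  rw [h.fderiv2_comm hz a b, h.fderiv2_symm hz b a b a, h.chris_symm hz a b,
    h.symm z hz (chris G z a a) (chris G z b b)]
  ring

omit [FiniteDimensional ℝ E] in
theorem secG_self (z a : E) : secG G z a a = 0 := by
  simp only [secG]
  ring

/-- For fixed `a`, a bilinear form whose diagonal is `secG G z a`. -/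
def secB (G : E → E →L[ℝ] E →L[ℝ] ℝ) (z a : E) : E →ₗ[ℝ] E →ₗ[ℝ] ℝ :=
  LinearMap.mk₂ ℝ
    (fun b c => -(fderiv ℝ (fderiv ℝ G) z a a b c + fderiv ℝ (fderiv ℝ G) z b c a a
        - 2 * fderiv ℝ (fderiv ℝ G) z b a a c) / 2
      + G z (chris G z a b) (chris G z a c) - G z (chris G z a a) (chris G z b c))
    (by intro x y c; simp only [map_add, add_apply]; ring)
    (by intro r x c; simp only [map_smul, smul_apply, smul_eq_mul]; ring)
    (by intro x y c; simp only [map_add, add_apply]; ring)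
    (by intro r x c; simp only [map_smul, smul_apply, smul_eq_mul]; ring)

omit [FiniteDimensional ℝ E] in
theorem secB_self (z a b : E) : secB G z a b b = secG G z a b := by
  simp only [secB, LinearMap.mk₂_apply, secG]

/-- Module LIN at a point of a local Riemannian metric. -/
theorem loc_lin {E : Type} [NormedAddCommGroup E] [NormedSpace ℝ E] [FiniteDimensional ℝ E]
    {G : E → E →L[ℝ] E →L[ℝ] ℝ} {U : Set E} {z : E} (h : LocalRiem G U) (hz : z ∈ U)
    {n : ℕ} (hn : Module.finrank ℝ E = n) {κ a : ℝ} {L : ℕ}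
    (hκ : 0 < κ)
    (hLIN : ∀ (V : Type) [NormedAddCommGroup V] [InnerProductSpace ℝ V]
      [FiniteDimensional ℝ V], Module.finrank ℝ V = n →
      ∀ (K : V → V → ℝ) (B : V → V →ₗ[ℝ] V →ₗ[ℝ] ℝ) (δ : ℝ), 0 ≤ δ → δ ≤ a →
      (∀ u v, K u v = B u v v) → (∀ u v, K u v = K v u) → (∀ u, K u u = 0) →
      (∀ u v, -δ * (‖u‖ ^ 2 * ‖v‖ ^ 2 - ⟪u, v⟫ ^ 2) ≤ K u v) →
      (∀ b : OrthonormalBasis (Fin n) ℝ V, 1 ≤ ∑ i, ∑ j, K (b i) (b j)) →
      ∀ (N : ℕ) (u : Fin N → V) (d : Fin N → ℝ) (t : ℝ), 0 < t →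
      (∀ j, ‖u j‖ = 1) → (∀ j, 0 ≤ d j ∧ d j ≤ 2 * t) →
      (∀ j, ∀ b : OrthonormalBasis (Fin n) ℝ V, ∑ i, K (b i) (u j) ≤ a) →
      (∀ i j, i ≠ j → κ * t / 2 ≤ ‖d i • u i - d j • u j‖) → N ≤ L)
    {δ : ℝ} (hδ0 : 0 ≤ δ) (hδa : δ ≤ a)
    (hsec : ∀ u v : E, -δ * (G z u u * G z v v - G z u v ^ 2) ≤ secG G z u v)
    (hscal : ∀ b : Module.Basis (Fin (Module.finrank ℝ E)) ℝ E,
      (∀ i j, G z (b i) (b j) = if i = j then 1 else 0) →
      1 ≤ ∑ i, ∑ j, secG G z (b i) (b j))
    (N : ℕ) (u : Fin N → E) (d : Fin N → ℝ) (t : ℝ) (ht : 0 < t)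
    (hu : ∀ j, G z (u j) (u j) = 1) (hd : ∀ j, 0 ≤ d j ∧ d j ≤ 2 * t)
    (hric : ∀ j, ∀ b : Module.Basis (Fin (Module.finrank ℝ E)) ℝ E,
      (∀ i j, G z (b i) (b j) = if i = j then 1 else 0) → ∑ i, secG G z (b i) (u j) ≤ a)
    (hsep : ∀ i j, i ≠ j →
      (κ * t / 2) ^ 2 ≤ G z (d i • u i - d j • u j) (d i • u i - d j • u j)) :
    N ≤ L := by
  subst hn
  let g : E →ₗ[ℝ] E →ₗ[ℝ] ℝ :=
    LinearMap.mk₂ ℝ (fun v w => G z v w) (by intro x y c; simp) (by intro r x c; simp)
      (by intro x y c; simp) (by intro r x c; simp)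
  obtain ⟨φ, hφ⟩ := exists_iso (n := Module.finrank ℝ E) rfl g
    (fun v w => h.symm z hz v w) (fun v hv => h.pos z hz v hv)
  have hφG : ∀ v w, G z v w = ⟪φ v, φ w⟫ := hφ
  have hG : ∀ x y : EuclideanSpace ℝ (Fin (Module.finrank ℝ E)),
      G z (φ.symm x) (φ.symm y) = ⟪x, y⟫ := by
    intro x y
    rw [hφG, φ.apply_symm_apply, φ.apply_symm_apply]
  have hbas : ∀ b : OrthonormalBasis (Fin (Module.finrank ℝ E)) ℝ
      (EuclideanSpace ℝ (Fin (Module.finrank ℝ E))),
      ∀ i j, G z ((b.toBasis.map φ.symm) i) ((b.toBasis.map φ.symm) j)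
        = if i = j then 1 else 0 := by
    intro b i j
    rw [Module.Basis.map_apply, Module.Basis.map_apply, hG, OrthonormalBasis.coe_toBasis]
    exact (orthonormal_iff_ite.1 b.orthonormal) i j
  refine hLIN (EuclideanSpace ℝ (Fin (Module.finrank ℝ E))) (by simp)
    (fun x y => secG G z (φ.symm x) (φ.symm y))
    (fun x => (secB G z (φ.symm x)).compl₁₂ φ.symm.toLinearMap φ.symm.toLinearMap)
    δ hδ0 hδa ?_ ?_ ?_ ?_ ?_ N (fun j => φ (u j)) d t ht ?_ hd ?_ ?_
  · intro x y
    simp only [LinearMap.compl₁₂_apply]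
    exact (secB_self z _ _).symm
  · intro x y
    exact secG_symm h hz _ _
  · intro x
    exact secG_self z _
  · intro x y
    have := hsec (φ.symm x) (φ.symm y)
    rw [hG, hG, hG, real_inner_self_eq_norm_sq, real_inner_self_eq_norm_sq] at this
    exact this
  · intro b
    have := hscal (b.toBasis.map φ.symm) (hbas b)
    simpa using! this
  · intro j
    have h1 : ‖φ (u j)‖ ^ 2 = 1 := by
      rw [← real_inner_self_eq_norm_sq, ← hφG, hu j]
    have h2 : 0 ≤ ‖φ (u j)‖ := norm_nonneg _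
    nlinarith
  · intro j b
    have := hric j (b.toBasis.map φ.symm) (hbas b)
    simpa using! this
  · intro i j hij
    have h1 := hsep i j hij
    rw [hφG, real_inner_self_eq_norm_sq] at h1
    have h2 : κ * t / 2 ≤ ‖φ (d i • u i - d j • u j)‖ := by
      refine (pow_le_pow_iff_left₀ (by positivity) (norm_nonneg _) two_ne_zero).1 h1
    simpa using! h2

end Vale.Agent.P210.R2.H329
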