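import Vale.Agent.P210.R2.H53.SpecR

/-!
# The hinge inequality at a point: `t → 0` in the second conclusion of `CMP`
-/

open scoped Manifold ContDiff Topology Bundle RealInnerProductSpace
open Set Metric Filter Bundle IsManifold

set_option maxSynthPendingDepth 3

noncomputable section

namespace Vale.Agent.P210.R2.H329

open Vale.Agent.P210.R2.H53

variable {E : Type} [NormedAddCommGroup E] [NormedSpace ℝ E] [FiniteDimensional ℝ E]
  {M : Type} [MetricSpace M] [ChartedSpace E M]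
  [RiemannianBundle (fun x : M => TangentSpace 𝓘(ℝ, E) x)]
  [IsManifold 𝓘(ℝ, E) ∞ M]
  [IsContMDiffRiemannianBundle 𝓘(ℝ, E) ∞ E (fun x : M => TangentSpace 𝓘(ℝ, E) x)]

omit [FiniteDimensional ℝ E] [IsManifold 𝓘(ℝ, E) ∞ M]
  [IsContMDiffRiemannianBundle 𝓘(ℝ, E) ∞ E (fun x : M => TangentSpace 𝓘(ℝ, E) x)] in
theorem slope_tendsto {f : ℝ → E} {u : E} {a : ℝ} (ha : 0 < a)
    (h : HasDerivWithinAt f u (Icc 0 a) 0) :
    Tendsto (slope f 0) (𝓝[>] 0) (𝓝 u) := by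
  have h1 : HasDerivWithinAt f u (Ici 0) 0 := h.mono_of_mem_nhdsWithin (Icc_mem_nhdsGE ha)
  have h2 : HasDerivWithinAt f u (Ioi 0) 0 := h1.mono Ioi_subset_Ici_self
  exact (hasDerivWithinAt_iff_tendsto_slope' (by simp)).1 h2

theorem hinge
    (hJET3 : ∀ e ∈ maximalAtlas 𝓘(ℝ, E) ∞ M, ∀ z ∈ e.target, ∀ ε > 0, ∀ᶠ y in 𝓝 (z, z),
      dist (e.symm y.1) (e.symm y.2) ≤
        (1 + ε) * √(chartG e z (y.1 - y.2) (y.1 - y.2)))
    {ε T : ℝ} (hε : 0 < ε)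
    (hC2 : ∀ (c₁ c₂ : ℝ → M) (a b t : ℝ), MinGeo c₁ 0 a → MinGeo c₂ 0 b → c₁ 0 = c₂ 0 →
      0 < t → t ≤ a → t ≤ b → a ≤ T → b ≤ T →
      dist (c₁ a) (c₂ b) ^ 2 ≤
        (1 + ε) * ((a - b) ^ 2 + a * b * (dist (c₁ t) (c₂ t) / t) ^ 2))
    {c₁ c₂ : ℝ → M} {a b : ℝ} (ha : 0 < a) (haT : a ≤ T) (hb : 0 < b) (hbT : b ≤ T)
    (h1 : MinGeo c₁ 0 a) (h2 : MinGeo c₂ 0 b) {e : OpenPartialHomeomorph M E}
    (he : e ∈ maximalAtlas 𝓘(ℝ, E) ∞ M) (h0 : c₁ 0 ∈ e.source) (h12 : c₁ 0 = c₂ 0)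
    {u₁ u₂ : E} (hu₁ : HasDerivWithinAt (fun t => e (c₁ t)) u₁ (Icc 0 a) 0)
    (hu₂ : HasDerivWithinAt (fun t => e (c₂ t)) u₂ (Icc 0 b) 0)
    (hn₁ : chartG e (e (c₁ 0)) u₁ u₁ = 1) (hn₂ : chartG e (e (c₁ 0)) u₂ u₂ = 1) :
    dist (c₁ a) (c₂ b) ^ 2 ≤
      (1 + ε) * chartG e (e (c₁ 0)) (a • u₁ - b • u₂) (a • u₁ - b • u₂) := by
  set z := e (c₁ 0) with hz
  have hzt : z ∈ e.target := e.map_source h0
  -- continuity of the curves at `0`
  have hcont : ∀ (c : ℝ → M) (r : ℝ), 0 < r → MinGeo c 0 r → Tendsto c (𝓝[>] 0) (𝓝 (c 0)) := by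
    intro c r hr hc
    rw [tendsto_iff_dist_tendsto_zero]
    have h3 : Tendsto (fun t : ℝ => t) (𝓝[>] 0) (𝓝 0) := nhdsWithin_le_nhds
    refine h3.congr' ?_
    filter_upwards [Ioc_mem_nhdsGT hr] with t ht
    rw [hc t ⟨ht.1.le, ht.2⟩ 0 ⟨le_rfl, hr.le⟩, sub_zero, abs_of_pos ht.1]
  have hc1 := hcont c₁ a ha h1
  have hc2 := hcont c₂ b hb h2
  have hs1 : Tendsto (slope (fun t => e (c₁ t)) 0) (𝓝[>] 0) (𝓝 u₁) := slope_tendsto ha hu₁
  have hs2 : Tendsto (slope (fun t => e (c₂ t)) 0) (𝓝[>] 0) (𝓝 u₂) := slope_tendsto hb hu₂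
  have hw : Tendsto (fun t => slope (fun t => e (c₁ t)) 0 t - slope (fun t => e (c₂ t)) 0 t)
      (𝓝[>] 0) (𝓝 (u₁ - u₂)) := hs1.sub hs2
  have hGc : Tendsto (fun t => chartG e z
      (slope (fun t => e (c₁ t)) 0 t - slope (fun t => e (c₂ t)) 0 t)
      (slope (fun t => e (c₁ t)) 0 t - slope (fun t => e (c₂ t)) 0 t))
      (𝓝[>] 0) (𝓝 (chartG e z (u₁ - u₂) (u₁ - u₂))) := by
    have hc : Continuous fun w : E => chartG e z w w := by fun_prop
    exact (hc.tendsto _).comp hw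
  -- the bound for each `η`
  have hη : ∀ η > 0, dist (c₁ a) (c₂ b) ^ 2 ≤
      (1 + ε) * ((a - b) ^ 2 + a * b * ((1 + η) ^ 2 * chartG e z (u₁ - u₂) (u₁ - u₂))) := by
    intro η hη0
    have hev := hJET3 e he z hzt η hη0
    have hpair : Tendsto (fun t => (e (c₁ t), e (c₂ t))) (𝓝[>] 0) (𝓝 (z, z)) := by
      rw [nhds_prod_eq]
      refine Tendsto.prodMk ?_ ?_
      · exact (e.continuousAt h0).tendsto.comp hc1
      · have : z = e (c₂ 0) := by rw [hz, h12]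
        rw [this]
        exact (e.continuousAt (h12 ▸ h0)).tendsto.comp hc2
    have hev1 := hpair.eventually hev
    have hsrc1 : ∀ᶠ t in 𝓝[>] (0 : ℝ), c₁ t ∈ e.source := hc1 (e.open_source.mem_nhds h0)
    have hsrc2 : ∀ᶠ t in 𝓝[>] (0 : ℝ), c₂ t ∈ e.source :=
      hc2 (e.open_source.mem_nhds (h12 ▸ h0))
    have hle : ∀ᶠ t in 𝓝[>] (0 : ℝ), dist (c₁ a) (c₂ b) ^ 2 ≤
        (1 + ε) * ((a - b) ^ 2 + a * b * ((1 + η) ^ 2 * chartG e z
          (slope (fun t => e (c₁ t)) 0 t - slope (fun t => e (c₂ t)) 0 t)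
          (slope (fun t => e (c₁ t)) 0 t - slope (fun t => e (c₂ t)) 0 t))) := by
      filter_upwards [hev1, hsrc1, hsrc2, Ioc_mem_nhdsGT ha, Ioc_mem_nhdsGT hb,
        self_mem_nhdsWithin] with t ht1 ht2 ht3 ht4 ht5 ht0
      have ht0' : 0 < t := ht0
      refine (hC2 c₁ c₂ a b t h1 h2 h12 ht0' ht4.2 ht5.2 haT hbT).trans ?_
      rw [e.left_inv ht2, e.left_inv ht3] at ht1
      have hdiff : e (c₁ t) - e (c₂ t)
          = t • (slope (fun t => e (c₁ t)) 0 t - slope (fun t => e (c₂ t)) 0 t) := by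
        rw [slope_def_module, slope_def_module, sub_zero, smul_sub, smul_smul, smul_smul,
          mul_inv_cancel₀ ht0'.ne', one_smul, one_smul, h12]
        abel
      rw [hdiff] at ht1
      set w := slope (fun t => e (c₁ t)) 0 t - slope (fun t => e (c₂ t)) 0 t with hwdef
      have hGt : chartG e z (t • w) (t • w) = t ^ 2 * chartG e z w w := by
        simp only [map_smul, smul_apply, smul_eq_mul]
        ring
      have hGw : 0 ≤ chartG e z w w := by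
        by_cases hw0 : w = 0
        · rw [hw0]; simp
        · exact (chartG_pos he hzt w hw0).le
      rw [hGt, Real.sqrt_mul (by positivity), Real.sqrt_sq ht0'.le] at ht1
      have hdt : dist (c₁ t) (c₂ t) / t ≤ (1 + η) * √(chartG e z w w) := by
        rw [div_le_iff₀ ht0']
        linarith
      have hdt2 : (dist (c₁ t) (c₂ t) / t) ^ 2 ≤ (1 + η) ^ 2 * chartG e z w w := by
        calc (dist (c₁ t) (c₂ t) / t) ^ 2 ≤ ((1 + η) * √(chartG e z w w)) ^ 2 :=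
              pow_le_pow_left₀ (by positivity) hdt 2
          _ = (1 + η) ^ 2 * chartG e z w w := by rw [mul_pow, Real.sq_sqrt hGw]
      have hab : 0 ≤ a * b := by positivity
      have := mul_le_mul_of_nonneg_left hdt2 hab
      apply mul_le_mul_of_nonneg_left _ (by positivity)
      linarith
    refine ge_of_tendsto ?_ hle
    exact ((hGc.const_mul ((1 + η) ^ 2)).const_mul (a * b)).const_add ((a - b) ^ 2)
      |>.const_mul (1 + ε)
  have hlim : dist (c₁ a) (c₂ b) ^ 2 ≤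
      (1 + ε) * ((a - b) ^ 2 + a * b * ((1 + 0) ^ 2 * chartG e z (u₁ - u₂) (u₁ - u₂))) := by
    have ht : Tendsto (fun η : ℝ =>
        (1 + ε) * ((a - b) ^ 2 + a * b * ((1 + η) ^ 2 * chartG e z (u₁ - u₂) (u₁ - u₂))))
        (𝓝[>] 0) (𝓝 ((1 + ε) * ((a - b) ^ 2 + a * b * ((1 + 0) ^ 2 *
          chartG e z (u₁ - u₂) (u₁ - u₂))))) := by
      have hc : Continuous (fun η : ℝ =>
        (1 + ε) * ((a - b) ^ 2 + a * b * ((1 + η) ^ 2 * chartG e z (u₁ - u₂) (u₁ - u₂)))) := by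
        fun_prop
      exact (hc.tendsto 0).mono_left nhdsWithin_le_nhds
    refine ge_of_tendsto ht ?_
    filter_upwards [self_mem_nhdsWithin] with η hη0 using hη η hη0
  have hfin : (a - b) ^ 2 + a * b * ((1 + 0) ^ 2 * chartG e z (u₁ - u₂) (u₁ - u₂))
      = chartG e z (a • u₁ - b • u₂) (a • u₁ - b • u₂) := by
    simp only [map_sub, map_smul, sub_apply, smul_apply, smul_eq_mul]
    rw [hn₁, hn₂, chartG_symm e z u₂ u₁]
    ring
  rw [hfin] at hlim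
  exact hlim

end Vale.Agent.P210.R2.H329
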