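import Vale.Agent.P210.R2.H329.PtLin

/-!
# Module LIN at a point of a manifold with `SecGE (-δ)` and `ScalGE 1`
-/

open scoped Manifold ContDiff Topology Bundle RealInnerProductSpace
open Set Metric Filter Bundle IsManifold

set_option maxSynthPendingDepth 3

noncomputable section

namespace Vale.Agent.P210.R2.H329

open Vale.Agent.P210.R2.H53

variable {E : Type} [NormedAddCommGroup E] [NormedSpace ℝ E] [FiniteDimensional ℝ E]
  {M : Type} [MetricSpace M] [ChartedSpace E M]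
  [RiemannianBundle (fun x : M => TangentSpace 𝓘(ℝ, E) x)]
  [IsManifold 𝓘(ℝ, E) ∞ M]
  [IsContMDiffRiemannianBundle 𝓘(ℝ, E) ∞ E (fun x : M => TangentSpace 𝓘(ℝ, E) x)]

theorem localRiem_chartG {e : OpenPartialHomeomorph M E} (he : e ∈ maximalAtlas 𝓘(ℝ, E) ∞ M) :
    LocalRiem (chartG e) e.target :=
  ⟨e.open_target, contDiffOn_chartG he, fun z _ v w => chartG_symm e z v w,
    fun _ hz v hv => chartG_pos he hz v hv⟩

/-- There is an orthonormal basis of the metric at a point of a chart. -/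
theorem exists_orthonormal_basis {e : OpenPartialHomeomorph M E}
    (he : e ∈ maximalAtlas 𝓘(ℝ, E) ∞ M) {z : E} (hz : z ∈ e.target) :
    ∃ b : Module.Basis (Fin (Module.finrank ℝ E)) ℝ E,
      ∀ i k, chartG e z (b i) (b k) = if i = k then 1 else 0 := by
  classical
  let g : E →ₗ[ℝ] E →ₗ[ℝ] ℝ :=
    LinearMap.mk₂ ℝ (fun v w => chartG e z v w) (by intro x y c; simp) (by intro r x c; simp)
      (by intro x y c; simp) (by intro r x c; simp)
  obtain ⟨φ, hφ⟩ := exists_iso (n := Module.finrank ℝ E) rfl g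
    (fun v w => chartG_symm e z v w) (fun v hv => chartG_pos he hz v hv)
  have hφG : ∀ v w, chartG e z v w = ⟪φ v, φ w⟫ := hφ
  let b := EuclideanSpace.basisFun (Fin (Module.finrank ℝ E)) ℝ
  refine ⟨b.toBasis.map φ.symm, fun i k => ?_⟩
  rw [Module.Basis.map_apply, Module.Basis.map_apply, hφG, φ.apply_symm_apply,
    φ.apply_symm_apply, OrthonormalBasis.coe_toBasis]
  exact (orthonormal_iff_ite.1 b.orthonormal) i k

theorem ptLin {n L : ℕ} {κ a : ℝ} (hκ : 0 < κ)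
    (hL : ∀ (V : Type) [NormedAddCommGroup V] [InnerProductSpace ℝ V]
      [FiniteDimensional ℝ V], Module.finrank ℝ V = n →
      ∀ (K : V → V → ℝ) (B : V → V →ₗ[ℝ] V →ₗ[ℝ] ℝ) (δ : ℝ), 0 ≤ δ → δ ≤ a →
      (∀ u v, K u v = B u v v) → (∀ u v, K u v = K v u) → (∀ u, K u u = 0) →
      (∀ u v, -δ * (‖u‖ ^ 2 * ‖v‖ ^ 2 - ⟪u, v⟫ ^ 2) ≤ K u v) →
      (∀ b : OrthonormalBasis (Fin n) ℝ V, 1 ≤ ∑ i, ∑ j, K (b i) (b j)) →
      ∀ (N : ℕ) (u : Fin N → V) (d : Fin N → ℝ) (t : ℝ), 0 < t →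
      (∀ j, ‖u j‖ = 1) → (∀ j, 0 ≤ d j ∧ d j ≤ 2 * t) →
      (∀ j, ∀ b : OrthonormalBasis (Fin n) ℝ V, ∑ i, K (b i) (u j) ≤ a) →
      (∀ i j, i ≠ j → κ * t / 2 ≤ ‖d i • u i - d j • u j‖) → N ≤ L)
    (hE : Module.finrank ℝ E = n) {δ : ℝ} (hδ : 0 ≤ δ) (hδa : δ ≤ a)
    (hsec : SecGE E M (-δ)) (hscal : ScalGE E M 1) {e : OpenPartialHomeomorph M E}
    (he : e ∈ maximalAtlas 𝓘(ℝ, E) ∞ M) {z : E} (hz : z ∈ e.target)
    (N : ℕ) (u : Fin N → E) (d : Fin N → ℝ) (t : ℝ) (ht : 0 < t)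
    (hu : ∀ j, chartG e z (u j) (u j) = 1) (hd : ∀ j, 0 ≤ d j ∧ d j ≤ 2 * t)
    (hric : ∀ j, ∀ b : Module.Basis (Fin (Module.finrank ℝ E)) ℝ E,
      (∀ i k, chartG e z (b i) (b k) = if i = k then 1 else 0) →
      ∑ i, secG (chartG e) z (b i) (u j) ≤ a)
    (hsep : ∀ i j, i ≠ j →
      κ * t / 2 ≤ √(chartG e z (d i • u i - d j • u j) (d i • u i - d j • u j))) :
    N ≤ L := by
  have hR := localRiem_chartG he
  refine loc_lin hR hz hE hκ hL hδ hδa ?_ ?_ N u d t ht hu hd hric ?_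
  · intro v w
    obtain ⟨Γ, hΓ, h⟩ := hsec e he z hz
    have := h v w
    rw [sectNum_eq he hz hΓ] at this
    exact this
  · intro b hb
    obtain ⟨Γ, hΓ, h⟩ := hscal e he z hz
    have := h b hb
    simp only [sectNum_eq he hz hΓ] at this
    exact this
  · intro i j hij
    have h1 := hsep i j hij
    have h0 : 0 ≤ κ * t / 2 := by positivity
    exact (Real.le_sqrt' (by positivity)).1 h1

end Vale.Agent.P210.R2.H329
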